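import Vale.Agent.Gersten.Main

/-! The subgroup `BS(1,1)` of the one-relator group with relator a commutator. -/

set_option autoImplicit false

namespace Vale.Agent.Gersten

universe u

variable {X : Type u}

/-- the homomorphism `ℤ² → ⟨X | r⟩` for a commutator relator -/
theorem exists_z2 {u v : FreeGroup X} (huv : u * v ≠ v * u) {R : Set (FreeGroup X)}
    (hR : R = {u * v * u⁻¹ * v⁻¹}) :
    Commute (PresentedGroup.mk R u) (PresentedGroup.mk R v) ∧
      ∀ i j : ℤ, PresentedGroup.mk R u ^ i * PresentedGroup.mk R v ^ j = 1 → i = 0 ∧ j = 0 := by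
  subst hR
  set r := u * v * u⁻¹ * v⁻¹ with hr
  have hr1 : r ≠ 1 := by
    intro h
    apply huv
    rw [hr, mul_inv_eq_one, mul_inv_eq_iff_eq_mul] at h
    exact h
  obtain ⟨k, hk, h1, h2⟩ := exists_level hr1
  set N := Subgroup.normalClosure ({r} : Set (FreeGroup X)) with hN
  have hNk : N ≤ DD X k := Subgroup.normalClosure_le_normal (by simpa using h1)
  have hrN : r ∈ N := Subgroup.subset_normalClosure rfl
  constructor
  · have h3 : PresentedGroup.mk {r} r = 1 := (QuotientGroup.eq_one_iff _).2 hrN
    rw [hr, map_mul, map_mul, map_mul, map_inv, map_inv, mul_inv_eq_one,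
      mul_inv_eq_iff_eq_mul] at h3
    exact h3
  · intro i j h
    rw [← map_zpow, ← map_zpow, ← map_mul] at h
    exact zpow_mul_zpow_mem hk h2 hNk hrN ((QuotientGroup.eq_one_iff _).1 h)

end Vale.Agent.Gersten
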