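import Mathlib

/-! The Magnus filtration of a free group through operators on functions on words. -/

set_option autoImplicit false

namespace Vale.Agent.Gersten

universe u

variable {X : Type u}

/-- functions on words, that is noncommutative power series -/
abbrev PS (X : Type u) := List X → ℤ

open Classical in
/-- multiplication by the letter `x` on the left -/
noncomputable def NN (x : X) : Module.End ℤ (PS X) where
  toFun f w := match w with
    | [] => 0
    | y :: w' => if y = x then f w' else 0
  map_add' f g := by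
    funext w
    cases w with
    | nil => simp
    | cons y w' => by_cases h : y = x <;> simp [h]
  map_smul' c f := by
    funext w
    cases w with
    | nil => simp
    | cons y w' => by_cases h : y = x <;> simp [h]

@[simp] lemma NN_nil (x : X) (f : PS X) : NN x f [] = 0 := rfl

open Classical in
lemma NN_cons (x : X) (f : PS X) (y : X) (w : List X) :
    NN x f (y :: w) = if y = x then f w else 0 := rfl

open Classical in
/-- the inverse of `1 + x` applied to a function -/
noncomputable def invAux (x : X) (f : PS X) : List X → ℤ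
  | [] => f []
  | y :: w' => f (y :: w') - if y = x then invAux x f w' else 0

/-- the inverse of `1 + x` -/
noncomputable def II (x : X) : Module.End ℤ (PS X) where
  toFun := invAux x
  map_add' f g := by
    funext w
    induction w with
    | nil => rfl
    | cons y w ih =>
      rw [Pi.add_apply] at ih ⊢
      unfold invAux
      by_cases h : y = x
      · simp only [h, if_true]; rw [ih]; simp only [Pi.add_apply]; ring
      · simp only [h, if_false]; simp only [Pi.add_apply]; ring
  map_smul' c f := by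
    funext w
    induction w with
    | nil => rfl
    | cons y w ih =>
      rw [Pi.smul_apply] at ih ⊢
      unfold invAux
      by_cases h : y = x
      · simp only [h, if_true]; rw [ih]; simp only [Pi.smul_apply, smul_eq_mul, RingHom.id_apply]
        ring
      · simp only [h, if_false]; simp only [Pi.smul_apply, smul_eq_mul, RingHom.id_apply]; ring

lemma II_nil (x : X) (f : PS X) : II x f [] = f [] := rfl

open Classical in
lemma II_cons (x : X) (f : PS X) (y : X) (w : List X) :
    II x f (y :: w) = f (y :: w) - if y = x then II x f w else 0 := rfl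

lemma mul_II (x : X) : (1 + NN x) * II x = 1 := by
  classical
  refine LinearMap.ext fun f => ?_
  funext w
  show II x f w + NN x (II x f) w = f w
  cases w with
  | nil => rw [II_nil, NN_nil, add_zero]
  | cons y w => rw [II_cons, NN_cons]; ring

lemma II_mul (x : X) : II x * (1 + NN x) = 1 := by
  classical
  refine LinearMap.ext fun f => ?_
  funext w
  show II x (f + NN x f) w = f w
  induction w with
  | nil => rw [II_nil, Pi.add_apply, NN_nil, add_zero]
  | cons y w ih =>
    rw [II_cons, ih, Pi.add_apply, NN_cons]; ring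

/-- the unit `1 + x` -/
noncomputable def UU (x : X) : (Module.End ℤ (PS X))ˣ := ⟨1 + NN x, II x, mul_II x, II_mul x⟩

/-- the Magnus representation -/
noncomputable def rho (X : Type u) : FreeGroup X →* (Module.End ℤ (PS X))ˣ := FreeGroup.lift UU

/-- alternating words -/
def Alt (w : List X) : Prop := w.IsChain (· ≠ ·)

open Classical in
lemma UU_zpow_alt (x : X) (e : ℤ) (f : PS X) (y : X) (w : List X) (h : Alt (y :: w)) :
    ((UU x ^ e : (Module.End ℤ (PS X))ˣ) : Module.End ℤ (PS X)) f (y :: w) =
      f (y :: w) + e * if y = x then f w else 0 := by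
  -- words not starting with `x`
  have key : ∀ (e : ℤ) (f : PS X) (w : List X), w.head? ≠ some x →
      ((UU x ^ e : (Module.End ℤ (PS X))ˣ) : Module.End ℤ (PS X)) f w = f w := by
    have h1 : ∀ (f : PS X) (w : List X), w.head? ≠ some x →
        (UU x : Module.End ℤ (PS X)) f w = f w := by
      intro f w hw
      show f w + NN x f w = f w
      cases w with
      | nil => rw [NN_nil, add_zero]
      | cons y w =>
        rw [NN_cons, if_neg, add_zero]
        rintro rfl
        exact hw rfl
    intro e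
    induction e using Int.induction_on with
    | zero => intro f w _; rfl
    | succ n ih =>
      intro f w hw
      rw [zpow_add_one, Units.val_mul]
      show ((UU x ^ (n : ℤ) : (Module.End ℤ (PS X))ˣ) : Module.End ℤ (PS X))
        ((UU x : Module.End ℤ (PS X)) f) w = f w
      rw [ih _ _ hw, h1 _ _ hw]
    | pred n ih =>
      intro f w hw
      have h5 : (UU x ^ (-(n : ℤ) - 1) : (Module.End ℤ (PS X))ˣ) =
          UU x ^ (-(n : ℤ)) * (UU x)⁻¹ := by rw [zpow_sub_one]
      rw [h5, Units.val_mul]
      set g : PS X := (((UU x)⁻¹ : (Module.End ℤ (PS X))ˣ) : Module.End ℤ (PS X)) f with hg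
      show ((UU x ^ (-(n : ℤ)) : (Module.End ℤ (PS X))ˣ) : Module.End ℤ (PS X)) g w = f w
      rw [ih g w hw]
      have h6 := h1 g w hw
      have h7 : ((UU x : (Module.End ℤ (PS X))ˣ) : Module.End ℤ (PS X)) *
        (((UU x)⁻¹ : (Module.End ℤ (PS X))ˣ) : Module.End ℤ (PS X)) = 1 := Units.mul_inv _
      have h8 : (UU x : Module.End ℤ (PS X)) g = f := LinearMap.congr_fun h7 f
      rw [← h6, h8]
  by_cases hyx : y = x
  · subst hyx
    rw [if_pos rfl]
    have hw : w.head? ≠ some y := by
      cases w with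
      | nil => simp
      | cons z w =>
        unfold Alt at h
        rw [List.isChain_cons_cons] at h
        simpa using fun h' => h.1 h'.symm
    have step : ∀ f : PS X, (UU y : Module.End ℤ (PS X)) f (y :: w) = f (y :: w) + f w := by
      intro f
      show f (y :: w) + NN y f (y :: w) = _
      rw [NN_cons, if_pos rfl]
    have hUw : ∀ f : PS X, (UU y : Module.End ℤ (PS X)) f w = f w := by
      intro f
      have := key 1 f w hw
      rwa [zpow_one] at this
    revert f
    induction e using Int.induction_on with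
    | zero => intro f; simp
    | succ n ih =>
      intro f
      rw [zpow_add_one, Units.val_mul]
      show ((UU y ^ (n : ℤ) : (Module.End ℤ (PS X))ˣ) : Module.End ℤ (PS X))
        ((UU y : Module.End ℤ (PS X)) f) (y :: w) = _
      rw [ih, step, hUw]
      ring
    | pred n ih =>
      intro f
      have h5 : (UU y ^ (-(n : ℤ) - 1) : (Module.End ℤ (PS X))ˣ) =
          UU y ^ (-(n : ℤ)) * (UU y)⁻¹ := by rw [zpow_sub_one]
      rw [h5, Units.val_mul]
      set g : PS X := (((UU y)⁻¹ : (Module.End ℤ (PS X))ˣ) : Module.End ℤ (PS X)) f with hg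
      show ((UU y ^ (-(n : ℤ)) : (Module.End ℤ (PS X))ˣ) : Module.End ℤ (PS X)) g (y :: w) = _
      rw [ih]
      have h7 : ((UU y : (Module.End ℤ (PS X))ˣ) : Module.End ℤ (PS X)) *
        (((UU y)⁻¹ : (Module.End ℤ (PS X))ˣ) : Module.End ℤ (PS X)) = 1 := Units.mul_inv _
      have h8 : (UU y : Module.End ℤ (PS X)) g = f := LinearMap.congr_fun h7 f
      have h9 := step g
      have h10 := hUw g
      rw [h8] at h9 h10
      rw [h9, h10]
      ring
  · rw [if_neg hyx, mul_zero, add_zero]
    exact key e f (y :: w) (by simpa using hyx)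

/-- the coefficients of a product of syllables -/
noncomputable def syll (L : List (Σ _ : X, Multiplicative ℤ)) : (Module.End ℤ (PS X))ˣ :=
  (L.map fun l => UU l.1 ^ (Multiplicative.toAdd l.2)).prod

open Classical in
/-- the constant power series `1` -/
noncomputable def delta : PS X := fun w => if w = [] then 1 else 0

lemma syll_cons (l : Σ _ : X, Multiplicative ℤ) (L : List (Σ _ : X, Multiplicative ℤ))
    (f : PS X) : (syll (l :: L) : Module.End ℤ (PS X)) f =
      ((UU l.1 ^ (Multiplicative.toAdd l.2) : (Module.End ℤ (PS X))ˣ) : Module.End ℤ (PS X))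
        ((syll L : Module.End ℤ (PS X)) f) := by
  unfold syll
  rw [List.map_cons, List.prod_cons, Units.val_mul]
  rfl

lemma syll_zero (L : List (Σ _ : X, Multiplicative ℤ)) :
    ∀ w : List X, Alt w → L.length < w.length → (syll L : Module.End ℤ (PS X)) delta w = 0 := by
  classical
  induction L with
  | nil =>
    intro w _ h
    show delta w = 0
    unfold delta
    rw [if_neg]
    rintro rfl
    simp at h
  | cons l L ih =>
    intro w hw hlen
    rw [syll_cons]
    cases w with
    | nil => simp at hlen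
    | cons y w =>
      rw [UU_zpow_alt _ _ _ _ _ hw]
      rw [List.length_cons, List.length_cons] at hlen
      rw [ih (y :: w) hw (by rw [List.length_cons]; omega)]
      have : Alt w := List.IsChain.tail hw
      rw [ih w this (by omega)]
      simp

lemma syll_coeff (L : List (Σ _ : X, Multiplicative ℤ)) (h1 : ∀ l ∈ L, l.2 ≠ 1)
    (h2 : Alt (L.map fun l => l.1)) :
    (syll L : Module.End ℤ (PS X)) delta (L.map fun l => l.1) ≠ 0 := by
  classical
  induction L with
  | nil =>
    show (delta : PS X) [] ≠ 0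
    unfold delta
    rw [if_pos rfl]
    exact one_ne_zero
  | cons l L ih =>
    rw [List.map_cons] at h2
    rw [syll_cons, List.map_cons, UU_zpow_alt _ _ _ _ _ h2, if_pos rfl]
    rw [syll_zero L _ h2 (by simp), zero_add]
    have h3 : Alt (L.map fun l => l.1) := List.IsChain.tail h2
    refine mul_ne_zero ?_ (ih (fun l hl => h1 l (List.mem_cons_of_mem _ hl)) h3)
    intro h4
    exact h1 l (List.mem_cons_self) (by
      rw [← ofAdd_toAdd l.2, h4]; rfl)

/-- the map to the free product of infinite cyclic groups -/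
noncomputable def toProd (X : Type u) :
    FreeGroup X →* Monoid.CoprodI (fun _ : X => Multiplicative ℤ) :=
  FreeGroup.lift fun x => Monoid.CoprodI.of (i := x) (Multiplicative.ofAdd 1)

/-- and back -/
noncomputable def ofProd (X : Type u) :
    Monoid.CoprodI (fun _ : X => Multiplicative ℤ) →* FreeGroup X :=
  Monoid.CoprodI.lift fun x => zpowersHom _ (FreeGroup.of x)

lemma ofProd_toProd (g : FreeGroup X) : ofProd X (toProd X g) = g := by
  have : (ofProd X).comp (toProd X) = MonoidHom.id _ := by
    refine FreeGroup.ext_hom _ _ fun x => ?_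
    simp [ofProd, toProd]
  exact DFunLike.congr_fun this g

/-- the representation of the free product -/
noncomputable def Psi (X : Type u) :
    Monoid.CoprodI (fun _ : X => Multiplicative ℤ) →* (Module.End ℤ (PS X))ˣ :=
  Monoid.CoprodI.lift fun x => zpowersHom _ (UU x)

lemma Psi_toProd (g : FreeGroup X) : Psi X (toProd X g) = rho X g := by
  have : (Psi X).comp (toProd X) = rho X := by
    refine FreeGroup.ext_hom _ _ fun x => ?_
    simp [Psi, toProd, rho]
  exact DFunLike.congr_fun this g

/-- **Magnus**: every nontrivial element has a nonzero coefficient at a nonempty word. -/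
theorem exists_coeff (g : FreeGroup X) (hg : g ≠ 1) :
    ∃ w : List X, w ≠ [] ∧ (rho X g : Module.End ℤ (PS X)) delta w ≠ 0 := by
  classical
  set W := Monoid.CoprodI.Word.equiv (toProd X g) with hW
  have hprod : W.prod = toProd X g := Monoid.CoprodI.Word.equiv.symm_apply_apply _
  have h1 : rho X g = syll W.toList := by
    rw [← Psi_toProd, ← hprod]
    unfold Monoid.CoprodI.Word.prod syll
    rw [map_list_prod, List.map_map]
    congr 1
  have h2 : Alt (W.toList.map fun l => l.1) := by
    unfold Alt
    rw [List.isChain_map]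
    exact W.chain_ne
  refine ⟨W.toList.map fun l => l.1, ?_, ?_⟩
  · intro h3
    rw [List.map_eq_nil_iff] at h3
    apply hg
    have h4 : W.prod = 1 := by
      unfold Monoid.CoprodI.Word.prod
      rw [h3]
      rfl
    rw [← ofProd_toProd g, ← hprod, h4, map_one]
  · rw [h1]
    exact syll_coeff _ W.ne_one h2

/-- power series of order at least `n` -/
def ord (X : Type u) (n : ℕ) : AddSubgroup (PS X) where
  carrier := {f | ∀ w : List X, w.length < n → f w = 0}
  add_mem' := fun {a b} ha hb w hw => by rw [Pi.add_apply, ha w hw, hb w hw, add_zero]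
  zero_mem' := fun _ _ => rfl
  neg_mem' := fun {a} ha w hw => by rw [Pi.neg_apply, ha w hw, neg_zero]

lemma mem_ord {n : ℕ} {f : PS X} : f ∈ ord X n ↔ ∀ w : List X, w.length < n → f w = 0 := Iff.rfl

/-- operators raising the order by at least `k` -/
def EE (X : Type u) (k : ℕ) : AddSubgroup (Module.End ℤ (PS X)) where
  carrier := {T | ∀ (n : ℕ) (f : PS X), f ∈ ord X n → T f ∈ ord X (n + k)}
  add_mem' := fun ha hb n f hf => (ord X (n + k)).add_mem (ha n f hf) (hb n f hf)
  zero_mem' := fun n _ _ => (ord X (n + k)).zero_mem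
  neg_mem' := fun ha n f hf => (ord X (n + k)).neg_mem (ha n f hf)

lemma mem_EE {k : ℕ} {T : Module.End ℤ (PS X)} :
    T ∈ EE X k ↔ ∀ (n : ℕ) (f : PS X), f ∈ ord X n → T f ∈ ord X (n + k) := Iff.rfl

lemma EE_mul {j k : ℕ} {S T : Module.End ℤ (PS X)} (hS : S ∈ EE X j) (hT : T ∈ EE X k) :
    S * T ∈ EE X (j + k) := by
  intro n f hf
  have := hS _ _ (hT n f hf)
  rw [add_assoc, add_comm k j] at this
  exact this

lemma ord_mono {m n : ℕ} (h : m ≤ n) {f : PS X} (hf : f ∈ ord X n) : f ∈ ord X m :=
  fun w hw => hf w (lt_of_lt_of_le hw h)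

lemma EE_mono {j k : ℕ} (h : j ≤ k) {T : Module.End ℤ (PS X)} (hT : T ∈ EE X k) : T ∈ EE X j :=
  fun n f hf => ord_mono (by omega) (hT n f hf)

lemma EE_of_zsmul {k : ℕ} {T : Module.End ℤ (PS X)} {m : ℤ} (hm : m ≠ 0)
    (h : m • T ∈ EE X k) : T ∈ EE X k := by
  intro n f hf w hw
  have h1 := h n f hf w hw
  have h2 : m * (T f w) = 0 := h1
  exact (mul_eq_zero.1 h2).resolve_left hm

lemma NN_mem (x : X) : NN x ∈ EE X 1 := by
  classical
  intro n f hf w hw
  cases w with
  | nil => rfl
  | cons y w =>
    rw [NN_cons]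
    split_ifs with h
    · exact hf w (by rw [List.length_cons] at hw; omega)
    · rfl

lemma II_mem (x : X) : II x ∈ EE X 0 := by
  classical
  intro n f hf w
  induction w with
  | nil => intro hw; rw [II_nil]; exact hf _ hw
  | cons y w ih =>
    intro hw
    rw [II_cons, hf _ hw]
    split_ifs with h
    · rw [ih (by rw [List.length_cons] at hw; omega), sub_zero]
    · rw [sub_zero]

/-- abbreviation -/
noncomputable def rr (g : FreeGroup X) : Module.End ℤ (PS X) := (rho X g : Module.End ℤ (PS X))

lemma rr_mul (g h : FreeGroup X) : rr (g * h) = rr g * rr h := by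
  unfold rr; rw [map_mul, Units.val_mul]

lemma rr_one : rr (1 : FreeGroup X) = 1 := by
  unfold rr; rw [map_one, Units.val_one]

lemma rr_inv_mul (g : FreeGroup X) : rr g⁻¹ * rr g = 1 := by
  rw [← rr_mul, inv_mul_cancel, rr_one]

lemma rr_mul_inv (g : FreeGroup X) : rr g * rr g⁻¹ = 1 := by
  rw [← rr_mul, mul_inv_cancel, rr_one]

lemma rr_sub_one_mem (g : FreeGroup X) : rr g - 1 ∈ EE X 1 := by
  have h0 : ∀ T : Module.End ℤ (PS X), T - 1 ∈ EE X 1 → T ∈ EE X 0 := by
    intro T hT
    have h1 : (1 : Module.End ℤ (PS X)) ∈ EE X 0 := fun n f hf => hf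
    have := (EE X 0).add_mem (EE_mono (Nat.zero_le 1) hT) h1
    rwa [sub_add_cancel] at this
  induction g using FreeGroup.induction_on with
  | C1 => rw [rr_one, sub_self]; exact (EE X 1).zero_mem
  | of x =>
    have : rr (FreeGroup.of x) - 1 = NN x := by
      unfold rr rho
      rw [FreeGroup.lift_apply_of]
      show (1 + NN x) - 1 = NN x
      abel
    show rr (FreeGroup.of x) - 1 ∈ EE X 1
    rw [this]
    exact NN_mem x
  | inv_of x _ =>
    have : rr (FreeGroup.of x)⁻¹ - 1 = - (II x * NN x) := by
      have h1 : rr (FreeGroup.of x)⁻¹ = II x := by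
        unfold rr rho
        rw [map_inv, FreeGroup.lift_apply_of]
        rfl
      have h2 := II_mul x
      rw [mul_add, mul_one] at h2
      rw [h1, ← h2]
      abel
    show rr (FreeGroup.of x)⁻¹ - 1 ∈ EE X 1
    rw [this]
    exact (EE X 1).neg_mem (by simpa using EE_mul (II_mem x) (NN_mem x))
  | mul g h hg hh =>
    have : rr (g * h) - 1 = rr g * (rr h - 1) + (rr g - 1) := by
      rw [rr_mul]; noncomm_ring
    rw [this]
    refine (EE X 1).add_mem ?_ hg
    simpa using EE_mul (h0 _ hg) hh

lemma rr_mem (g : FreeGroup X) : rr g ∈ EE X 0 := by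
  have h1 : (1 : Module.End ℤ (PS X)) ∈ EE X 0 := fun n f hf => hf
  have := (EE X 0).add_mem (EE_mono (Nat.zero_le 1) (rr_sub_one_mem g)) h1
  rwa [sub_add_cancel] at this

/-- the dimension subgroups -/
def DD (X : Type u) (k : ℕ) : Subgroup (FreeGroup X) where
  carrier := {g | rr g - 1 ∈ EE X k}
  mul_mem' := fun {g h} hg hh => by
    show rr (g * h) - 1 ∈ EE X k
    have : rr (g * h) - 1 = rr g * (rr h - 1) + (rr g - 1) := by
      rw [rr_mul]; noncomm_ring
    rw [this]
    refine (EE X k).add_mem ?_ hg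
    have := EE_mul (rr_mem g) hh
    rwa [zero_add] at this
  one_mem' := by
    show rr 1 - 1 ∈ EE X k
    rw [rr_one, sub_self]; exact (EE X k).zero_mem
  inv_mem' := fun {g} hg => by
    show rr g⁻¹ - 1 ∈ EE X k
    have : rr g⁻¹ - 1 = - (rr g⁻¹ * (rr g - 1)) := by
      rw [mul_sub, rr_inv_mul]; noncomm_ring
    rw [this]
    refine (EE X k).neg_mem ?_
    have := EE_mul (rr_mem g⁻¹) hg
    rwa [zero_add] at this

lemma mem_DD {k : ℕ} {g : FreeGroup X} : g ∈ DD X k ↔ rr g - 1 ∈ EE X k := Iff.rfl

lemma DD_one (g : FreeGroup X) : g ∈ DD X 1 := rr_sub_one_mem g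

instance (k : ℕ) : (DD X k).Normal := by
  refine ⟨fun g hg x => ?_⟩
  rw [mem_DD] at hg ⊢
  have : rr (x * g * x⁻¹) - 1 = rr x * (rr g - 1) * rr x⁻¹ := by
    rw [rr_mul, rr_mul, mul_sub, sub_mul, mul_one, rr_mul_inv]
  rw [this]
  have := EE_mul (EE_mul (rr_mem x) hg) (rr_mem x⁻¹)
  rwa [zero_add, add_zero] at this

lemma conj_congr {k : ℕ} {g : FreeGroup X} (hg : g ∈ DD X k) (x : FreeGroup X) :
    (rr (x * g * x⁻¹) - 1) - (rr g - 1) ∈ EE X (k + 1) := by
  rw [mem_DD] at hg
  have e : (rr (x * g * x⁻¹) - 1) - (rr g - 1) =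
      (rr x - 1) * (rr g - 1) * rr x⁻¹ + (rr g - 1) * (rr x⁻¹ - 1) := by
    rw [rr_mul, rr_mul]
    have h1 := rr_mul_inv x
    have : rr x * rr g * rr x⁻¹ - 1 - (rr g - 1) -
        ((rr x - 1) * (rr g - 1) * rr x⁻¹ + (rr g - 1) * (rr x⁻¹ - 1)) =
        rr x * rr x⁻¹ - 1 := by noncomm_ring
    rw [h1, sub_self] at this
    exact sub_eq_zero.1 this
  rw [e]
  refine (EE X (k + 1)).add_mem ?_ ?_
  · have := EE_mul (EE_mul (rr_sub_one_mem x) hg) (rr_mem x⁻¹)
    rwa [add_zero, add_comm 1 k] at this
  · exact EE_mul hg (rr_sub_one_mem x⁻¹)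

lemma mul_congr {k : ℕ} (hk : 1 ≤ k) {g h : FreeGroup X} (hg : g ∈ DD X k) (hh : h ∈ DD X k) :
    (rr (g * h) - 1) - ((rr g - 1) + (rr h - 1)) ∈ EE X (k + 1) := by
  rw [mem_DD] at hg hh
  have e : (rr (g * h) - 1) - ((rr g - 1) + (rr h - 1)) = (rr g - 1) * (rr h - 1) := by
    rw [rr_mul]; noncomm_ring
  rw [e]
  exact EE_mono (by omega) (EE_mul hg hh)

lemma comm_mem {k : ℕ} {g : FreeGroup X} (hg : g ∈ DD X k) (h : FreeGroup X) :
    g * h * g⁻¹ * h⁻¹ ∈ DD X (k + 1) ∧ h * g * h⁻¹ * g⁻¹ ∈ DD X (k + 1) := by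
  have key : g * h * g⁻¹ * h⁻¹ ∈ DD X (k + 1) := by
    rw [mem_DD]
    have h1 := conj_congr hg h
    have e : rr (g * h * g⁻¹ * h⁻¹) - 1 =
        rr (g * h * g⁻¹ * h⁻¹) * (-((rr (h * g * h⁻¹) - 1) - (rr g - 1))) * rr g⁻¹ := by
      have h2 : g * h * g⁻¹ * h⁻¹ * (h * g * h⁻¹) = g := by group
      have h3 := congrArg rr h2
      rw [rr_mul] at h3
      have : rr (g * h * g⁻¹ * h⁻¹) * (-((rr (h * g * h⁻¹) - 1) - (rr g - 1))) =
          rr (g * h * g⁻¹ * h⁻¹) * rr g - rr (g * h * g⁻¹ * h⁻¹) * rr (h * g * h⁻¹) := by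
        noncomm_ring
      rw [this, h3, sub_mul, mul_assoc (rr (g * h * g⁻¹ * h⁻¹)), rr_mul_inv, mul_one]
    rw [e]
    have := EE_mul (EE_mul (rr_mem (g * h * g⁻¹ * h⁻¹)) ((EE X (k + 1)).neg_mem h1))
      (rr_mem g⁻¹)
    rwa [zero_add, add_zero] at this
  refine ⟨key, ?_⟩
  have h2 : h * g * h⁻¹ * g⁻¹ = (g * h * g⁻¹ * h⁻¹)⁻¹ := by group
  rw [h2]
  exact (DD X (k + 1)).inv_mem key

/-- the dimension subgroups of a free group intersect trivially -/
lemma exists_not_mem (g : FreeGroup X) (hg : g ≠ 1) : ∃ k, g ∉ DD X k := by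
  classical
  obtain ⟨w, hw1, hw2⟩ := exists_coeff g hg
  refine ⟨w.length + 1, fun h => hw2 ?_⟩
  rw [mem_DD] at h
  have h1 : (delta : PS X) ∈ ord X 0 := fun w hw => absurd hw (Nat.not_lt_zero _)
  have h2 := h 0 delta h1 w (by omega)
  have h3 : rr g delta w - delta w = 0 := h2
  have h4 : (delta : PS X) w = 0 := by unfold delta; rw [if_neg hw1]
  rw [h4, sub_zero] at h3
  exact h3

end Vale.Agent.Gersten
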