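import Vale.Agent.Gersten.Magnus

/-! The subgroup generated by `u` and `v` in the one-relator group with relator `[u, v]`. -/

set_option autoImplicit false

namespace Vale.Agent.Gersten

universe u

variable {X : Type u}

/-- the commutator word -/
def cm {G : Type*} [Group G] (g h : G) : G := g * h * g⁻¹ * h⁻¹

lemma exists_level {g : FreeGroup X} (hg : g ≠ 1) : ∃ k, 1 ≤ k ∧ g ∈ DD X k ∧ g ∉ DD X (k + 1) := by
  classical
  have h := exists_not_mem g hg
  have h1 := Nat.find_spec h
  have h2 : 2 ≤ Nat.find h := by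
    by_contra hlt
    push Not at hlt
    apply h1
    have h3 : g ∈ DD X 1 := DD_one g
    rw [mem_DD] at h3 ⊢
    exact EE_mono (by omega) h3
  refine ⟨Nat.find h - 1, by omega, ?_, ?_⟩
  · by_contra h3
    have := Nat.find_min' h h3
    omega
  · rwa [Nat.sub_add_cancel (by omega)]

/-- **Key lemma**: if `N` is a normal subgroup inside `DD k`, containing `[u,v]` which is not in
`DD (k+1)`, then `u` and `v` generate a free abelian group of rank two modulo `N`. -/
theorem zpow_mul_zpow_mem {u v : FreeGroup X} {k : ℕ} (hk : 1 ≤ k) (h1 : cm u v ∉ DD X (k + 1))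
    {N : Subgroup (FreeGroup X)} [N.Normal] (hN : N ≤ DD X k) (huv : cm u v ∈ N) {i j : ℤ}
    (h : u ^ i * v ^ j ∈ N) : i = 0 ∧ j = 0 := by
  -- commutators of powers lie in `N`
  have hcomm : Commute (QuotientGroup.mk' N u) (QuotientGroup.mk' N v) := by
    have h2 : QuotientGroup.mk' N (cm u v) = 1 := (QuotientGroup.eq_one_iff _).2 huv
    unfold cm at h2
    rw [map_mul, map_mul, map_mul, map_inv, map_inv] at h2
    rw [commute_iff_eq]
    have h3 := congrArg (fun z => z * QuotientGroup.mk' N v * QuotientGroup.mk' N u) h2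
    simpa using h3
  have hmem : ∀ a b : ℤ, cm (u ^ a) (v ^ b) ∈ N := by
    intro a b
    rw [← QuotientGroup.eq_one_iff]
    show QuotientGroup.mk' N (cm (u ^ a) (v ^ b)) = 1
    unfold cm
    rw [map_mul, map_mul, map_mul, map_inv, map_inv, map_zpow, map_zpow,
      (hcomm.zpow_zpow a b).eq]
    group
  -- the leading terms
  have stepu : ∀ i : ℤ, (rr (cm (u ^ (i + 1)) v) - 1) -
      ((rr (cm (u ^ i) v) - 1) + (rr (cm u v) - 1)) ∈ EE X (k + 1) := by
    intro i
    have e : cm (u ^ (i + 1)) v = (u * cm (u ^ i) v * u⁻¹) * cm u v := by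
      unfold cm; rw [zpow_add_one]; group
    have hm1 : cm (u ^ i) v ∈ DD X k := hN (by simpa using hmem i 1)
    have hm2 : cm u v ∈ DD X k := hN huv
    have hm3 : u * cm (u ^ i) v * u⁻¹ ∈ DD X k := (inferInstance : (DD X k).Normal).conj_mem _ hm1 u
    have h3 := mul_congr hk hm3 hm2
    have h4 := conj_congr hm1 u
    rw [e]
    have := (EE X (k + 1)).add_mem h3 h4
    convert this using 1
    abel
  have stepv : ∀ i : ℤ, (rr (cm u (v ^ (i + 1))) - 1) -
      ((rr (cm u (v ^ i)) - 1) + (rr (cm u v) - 1)) ∈ EE X (k + 1) := by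
    intro i
    have e : cm u (v ^ (i + 1)) = cm u v * (v * cm u (v ^ i) * v⁻¹) := by
      unfold cm; rw [zpow_add_one]; group
    have hm1 : cm u (v ^ i) ∈ DD X k := hN (by simpa using hmem 1 i)
    have hm2 : cm u v ∈ DD X k := hN huv
    have hm3 : v * cm u (v ^ i) * v⁻¹ ∈ DD X k := (inferInstance : (DD X k).Normal).conj_mem _ hm1 v
    have h3 := mul_congr hk hm2 hm3
    have h4 := conj_congr hm1 v
    rw [e]
    have := (EE X (k + 1)).add_mem h3 h4
    convert this using 1
    abel
  -- an additive function of `i` modulo `EE (k+1)`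
  have lin : ∀ T : ℤ → Module.End ℤ (PS X), T 0 = 0 →
      (∀ i, T (i + 1) - (T i + (rr (cm u v) - 1)) ∈ EE X (k + 1)) →
      ∀ i, T i - i • (rr (cm u v) - 1) ∈ EE X (k + 1) := by
    intro T hT0 hT i
    induction i using Int.induction_on with
    | zero => rw [hT0, zero_smul, sub_zero]; exact (EE X (k + 1)).zero_mem
    | succ n ih =>
      have := (EE X (k + 1)).add_mem (hT n) ih
      convert this using 1
      rw [add_smul, one_smul]
      abel
    | pred n ih =>
      have h3 := hT (-(n : ℤ) - 1)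
      rw [sub_add_cancel] at h3
      have := (EE X (k + 1)).sub_mem ih h3
      convert this using 1
      rw [sub_smul, one_smul]
      abel
  have hu := lin (fun i => rr (cm (u ^ i) v) - 1) (by
    show rr (cm (u ^ (0 : ℤ)) v) - 1 = 0
    have : cm (u ^ (0 : ℤ)) v = 1 := by unfold cm; group
    rw [this, rr_one, sub_self]) stepu
  have hv := lin (fun i => rr (cm u (v ^ i)) - 1) (by
    show rr (cm u (v ^ (0 : ℤ))) - 1 = 0
    have : cm u (v ^ (0 : ℤ)) = 1 := by unfold cm; group
    rw [this, rr_one, sub_self]) stepv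
  have hr : rr (cm u v) - 1 ∉ EE X (k + 1) := h1
  have hi : i = 0 := by
    by_contra hne
    apply hr
    refine EE_of_zsmul hne ?_
    have h3 := (comm_mem (hN h) v).1
    have e : u ^ i * v ^ j * v * (u ^ i * v ^ j)⁻¹ * v⁻¹ = cm (u ^ i) v := by
      unfold cm; group
    rw [e, mem_DD] at h3
    have := (EE X (k + 1)).sub_mem h3 (hu i)
    simpa using this
  refine ⟨hi, ?_⟩
  rw [hi, zpow_zero, one_mul] at h
  by_contra hne
  apply hr
  refine EE_of_zsmul hne ?_
  have h3 := (comm_mem (hN h) u).2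
  have e : u * v ^ j * u⁻¹ * (v ^ j)⁻¹ = cm u (v ^ j) := rfl
  rw [e, mem_DD] at h3
  have := (EE X (k + 1)).sub_mem h3 (hv j)
  simpa using this

end Vale.Agent.Gersten
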